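import Vale.Agent.Lib.P154.Neg.LP.B4895.D

/-!
Part of the computations of a certificate for a restricted range of `theta`.
-/

namespace Vale.Agent.Lib.P154.Neg.B4895

open Vale.Agent.Lib.P154.Neg.Kron Vale.Agent.Lib.P154.Neg Vale.Agent.Lib.P154.Neg.Cst

theorem ctX_14 : checkCT C.A C.eX (c20 (c21 (c20 (c21 (c20 (M0)))))) tX_14 = true := by decide +kernel

theorem ctY1_4 : checkCT C.A C.eY1 (c02 (c02 (c02 (c02 (MC C.a0 C.b0 C.c0))))) tY1_4 = true := by decide +kernel

theorem ctY1_5 : checkCT C.A C.eY1 (c20 (c02 (c02 (c02 (MC C.a0 C.b0 C.c0))))) tY1_5 = true := by decide +kernel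

end Vale.Agent.Lib.P154.Neg.B4895
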