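import Vale.Agent.Lib.P154.Neg.LP.B4895.D

/-!
Part of the computations of a certificate for a restricted range of `theta`.
-/

namespace Vale.Agent.Lib.P154.Neg.B4895

open Vale.Agent.Lib.P154.Neg.Kron Vale.Agent.Lib.P154.Neg Vale.Agent.Lib.P154.Neg.Cst

theorem ctQ3_26 : checkTree 4 (eQ3t C) btQ3_18r tQ3_26 = true := by decide +kernel

end Vale.Agent.Lib.P154.Neg.B4895
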